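import Vale.Agent.P048.Main

namespace Vale.Agent.Results.P048.Full

theorem result (m n : ℕ) (hn : 3 ≤ n) (hmn : n ≤ m) (hne : (m, n) ≠ (3, 3)) :
    IsLeast {N : ℕ | ∀ G : SimpleGraph (Fin N),
      (SimpleGraph.cycleGraph m).IsContained G ∨ (⊤ : SimpleGraph (Fin n)).IsContained Gᶜ}
      ((m - 1) * (n - 1) + 1) :=
  Vale.Agent.P048.reduce m n hn hmn hne
    (fun hk V _ _ G => Vale.Agent.P048.no_min V G _ hk)

end Vale.Agent.Results.P048.Full
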