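import Vale.Agent.P048.Setup

namespace Vale.Agent.Results.P048.Large

theorem result (m n : ℕ) (hn : 3 ≤ n) (hmn : n ≤ m) (hm : 20 ≤ m) :
    IsLeast {N : ℕ | ∀ G : SimpleGraph (Fin N),
      (SimpleGraph.cycleGraph m).IsContained G ∨ (⊤ : SimpleGraph (Fin n)).IsContained Gᶜ}
      ((m - 1) * (n - 1) + 1) := by
  refine Vale.Agent.P048.reduce m n hn hmn (by simp; omega) (fun hk V _ _ G h => ?_)
  obtain ⟨t, _, _, h2, c, σ, hσ⟩ := Vale.Agent.P048.setup G _ hk h
  exact Vale.Agent.P048.large c hσ (by omega) h2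

end Vale.Agent.Results.P048.Large
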